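import Vale.Agent.P062.PosA

/-!
# P062 (Snaky): the game is reduced to one explicit four-stone position
-/

namespace Vale.Agent.Results.P062.OnePosition

open Vale.Agent.P062

/-- For the Snaky achievement game on the infinite grid:
(1) Maker wins from the empty board iff Maker wins after the opening Maker `(0,0)`, Breaker `(1,0)`;
(2) every reply to `(0,0)` that is not edge-adjacent loses;
(3) after Maker `(0,0)`, Breaker `(1,0)`, Maker `(0,-1)`, every reply other than `(0,-2)` loses;
(4) hence, if Maker wins the position left over in (3), Maker wins the game. -/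
theorem result : (MakerWins ∅ ∅ ↔ MakerWins {(0, 0)} {(1, 0)}) ∧
    (∀ d : Cell, d ≠ (0, 0) → d ∉ ({(1, 0), (-1, 0), (0, 1), (0, -1)} : Finset Cell) →
      MakerWins {(0, 0)} {d}) ∧
    (∀ d : Cell, d ∉ ({(0, 0), (0, -1), (1, 0)} : Finset Cell) → d ≠ (0, -2) →
      MakerWins {(0, 0), (0, -1)} {d, (1, 0)}) ∧
    (MakerWins {(0, 0), (0, -1)} {(0, -2), (1, 0)} → MakerWins ∅ ∅) := by
  refine ⟨reduction, fun d _ hd => firstReply d hd, fun d _ h2 => ?_, fun h => twoPositions posA h⟩
  by_cases h1 : d = (0, 1)
  · rw [h1]; exact posA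
  · exact secondReply d h1 h2

end Vale.Agent.Results.P062.OnePosition
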