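import Vale.Agent.P062.Reduction

/-!
# P062 (Snaky): the problem reduces to the single opening Maker (0,0), Breaker (1,0)
-/

namespace Vale.Agent.Results.P062.Reduction

open Vale.Agent.P062

/-- Maker has a winning strategy in the Snaky achievement game on the empty infinite grid if and
only if Maker wins from the position after the opening Maker `(0,0)`, Breaker `(1,0)`; moreover
every reply of Breaker to `(0,0)` that is not edge-adjacent to it loses outright. -/
theorem result : (MakerWins ∅ ∅ ↔ MakerWins {(0, 0)} {(1, 0)}) ∧
    (∀ d : Cell, d ≠ (0, 0) → d ∉ ({(1, 0), (-1, 0), (0, 1), (0, -1)} : Finset Cell) →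
      MakerWins {(0, 0)} {d}) :=
  ⟨reduction, fun d _ hd => firstReply d hd⟩

end Vale.Agent.Results.P062.Reduction
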