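import Vale.Agent.P062.Final

/-!
# P062 (Snaky): Maker wins the achievement game on the infinite square grid
-/

namespace Vale.Agent.Results.P062.Solved

open Vale.Agent.P062

/-- Maker has a winning strategy in the (weak) achievement game for Snaky on the initially empty
board `ℤ × ℤ`, with no handicap: Maker, moving first, can force ownership of an allowed copy of
Snaky after finitely many turns against every legal play of Breaker. -/
theorem result : MakerWins ∅ ∅ := makerWins_empty

end Vale.Agent.Results.P062.Solved
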