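import Vale.Agent.P062.B.Final

/-!
# P062 (Snaky): Maker wins, within 24 moves, inside a 25 × 25 square, and on all boards `n ≥ 25`
-/

namespace Vale.Agent.Results.P062.SolvedFinite

open Vale.Agent.P062

/-- (1) Maker has a winning strategy in the achievement game for Snaky on the initially empty board
`ℤ × ℤ`, with no handicap.
(2) Quantitative form: Maker can force a copy with at most 24 moves, all of them at cells of the
`25 × 25` square `[-12, 12]²`, whatever cells of `ℤ × ℤ` Breaker claims.
(3) Maker wins the game played on the finite `n × n` board, for every `n ≥ 25`. -/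
theorem result : MakerWins ∅ ∅ ∧ MakerWinsIn (square 12) 24 ∅ ∅ ∧
    ∀ n : ℕ, 25 ≤ n → MakerWinsOn (board n) ∅ ∅ :=
  ⟨makerWins_empty, makerWinsIn_empty, makerWinsOn_board⟩

end Vale.Agent.Results.P062.SolvedFinite
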